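import Mathlib

namespace Vale.Agent.P112

open MeasureTheory Set Filter Topology

/-- the test function: a smooth version of `1 / |x|`, cut off at height `2 ^ N` -/
noncomputable def fN (ψ : ContDiffBump (0 : ℂ)) (N : ℕ) (x : ℂ) : ℝ :=
  ∑ j ∈ Finset.range N, 2 ^ j * ψ ((2 ^ j : ℝ) • x)

variable {ψ : ContDiffBump (0 : ℂ)}

lemma fN_nonneg (N : ℕ) (x : ℂ) : 0 ≤ fN ψ N x :=
  Finset.sum_nonneg fun _ _ => mul_nonneg (by positivity) ψ.nonneg

lemma term_zero {j : ℕ} {x : ℂ} (h : ψ.rOut / 2 ^ j ≤ ‖x‖) : ψ ((2 ^ j : ℝ) • x) = 0 := by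
  apply ψ.zero_of_le_dist
  rw [dist_zero_right, norm_smul, Real.norm_eq_abs, abs_of_pos (by positivity)]
  rw [div_le_iff₀ (by positivity)] at h
  linarith

lemma fN_zero {N : ℕ} {x : ℂ} (h : ψ.rOut ≤ ‖x‖) : fN ψ N x = 0 := by
  apply Finset.sum_eq_zero
  intro j _
  rw [term_zero, mul_zero]
  refine le_trans (div_le_self ψ.rOut_pos.le ?_) h
  exact one_le_pow₀ (by norm_num)

lemma fN_contDiff (N : ℕ) {n : ℕ∞} : ContDiff ℝ n (fN ψ N) := by
  unfold fN
  apply ContDiff.sum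
  intro j _
  exact contDiff_const.mul (ψ.contDiff.comp (contDiff_const_smul _))

lemma fN_continuous (N : ℕ) : Continuous (fN ψ N) :=
  (fN_contDiff (ψ := ψ) N (n := 0)).continuous

lemma fN_compact (N : ℕ) : HasCompactSupport (fN ψ N) := by
  apply HasCompactSupport.of_support_subset_isCompact (isCompact_closedBall (0 : ℂ) ψ.rOut)
  intro x hx
  rw [mem_closedBall_zero_iff]
  by_contra h
  exact hx (fN_zero (not_le.1 h).le)

lemma fN_le (N : ℕ) (x : ℂ) : fN ψ N x ≤ 2 ^ N := by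
  induction N with
  | zero => simp [fN]
  | succ N ih =>
    have h1 : fN ψ (N + 1) x = fN ψ N x + 2 ^ N * ψ ((2 ^ N : ℝ) • x) := by
      simp [fN, Finset.sum_range_succ]
    have h2 : (2 : ℝ) ^ N * ψ ((2 ^ N : ℝ) • x) ≤ 2 ^ N * 1 :=
      mul_le_mul_of_nonneg_left ψ.le_one (by positivity)
    rw [h1, pow_succ]
    linarith

lemma fN_sq_le (N : ℕ) (x : ℂ) : fN ψ N x ^ 2 ≤ ∑ j ∈ Finset.range N,
    4 * 4 ^ j * (Metric.ball (0 : ℂ) (ψ.rOut / 2 ^ j)).indicator (fun _ => (1 : ℝ)) x := by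
  induction N with
  | zero => simp [fN]
  | succ N ih =>
    have h1 : fN ψ (N + 1) x = fN ψ N x + 2 ^ N * ψ ((2 ^ N : ℝ) • x) := by
      simp [fN, Finset.sum_range_succ]
    rw [Finset.sum_range_succ]
    by_cases hx : x ∈ Metric.ball (0 : ℂ) (ψ.rOut / 2 ^ N)
    · rw [indicator_of_mem hx, mul_one]
      have h2 : fN ψ (N + 1) x ≤ 2 ^ (N + 1) := fN_le _ _
      have h3 : 0 ≤ fN ψ (N + 1) x := fN_nonneg _ _
      have h4 : fN ψ (N + 1) x ^ 2 ≤ (2 ^ (N + 1)) ^ 2 := pow_le_pow_left₀ h3 h2 2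
      have h5 : ((2 : ℝ) ^ (N + 1)) ^ 2 = 4 * 4 ^ N := by
        have h50 : (4 : ℝ) ^ N = 2 ^ (2 * N) := by
          rw [pow_mul]
          norm_num
        rw [h50]
        ring
      have h6 : 0 ≤ ∑ j ∈ Finset.range N, (4 : ℝ) * 4 ^ j *
          (Metric.ball (0 : ℂ) (ψ.rOut / 2 ^ j)).indicator (fun _ => (1 : ℝ)) x :=
        Finset.sum_nonneg fun j _ => mul_nonneg (by positivity)
          (indicator_nonneg (fun _ _ => zero_le_one) _)
      linarith
    · rw [indicator_of_notMem hx, mul_zero, add_zero, h1, term_zero, mul_zero, add_zero]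
      · exact ih
      · simpa using hx

lemma integral_sq_le (N : ℕ) :
    ∫ x, fN ψ N x ^ 2 ≤ 4 * N * (Real.pi * ψ.rOut ^ 2) := by
  have hint : ∀ j : ℕ, Integrable (fun x : ℂ => 4 * 4 ^ j *
      (Metric.ball (0 : ℂ) (ψ.rOut / 2 ^ j)).indicator (fun _ => (1 : ℝ)) x) := by
    intro j
    apply Integrable.const_mul
    rw [integrable_indicator_iff measurableSet_ball]
    exact integrableOn_const measure_ball_lt_top.ne
  calc ∫ x, fN ψ N x ^ 2 ≤ ∫ x : ℂ, ∑ j ∈ Finset.range N, 4 * 4 ^ j *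
      (Metric.ball (0 : ℂ) (ψ.rOut / 2 ^ j)).indicator (fun _ => (1 : ℝ)) x := by
        apply integral_mono_of_nonneg
        · exact Eventually.of_forall fun x => sq_nonneg _
        · exact integrable_finsetSum _ fun j _ => hint j
        · exact Eventually.of_forall fun x => fN_sq_le N x
    _ = ∑ j ∈ Finset.range N, ∫ x : ℂ, 4 * 4 ^ j *
      (Metric.ball (0 : ℂ) (ψ.rOut / 2 ^ j)).indicator (fun _ => (1 : ℝ)) x :=
        integral_finsetSum _ fun j _ => hint j
    _ = ∑ j ∈ Finset.range N, 4 * (Real.pi * ψ.rOut ^ 2) := by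
        apply Finset.sum_congr rfl
        intro j _
        rw [integral_const_mul, integral_indicator_const _ measurableSet_ball, measureReal_def,
          Complex.volume_ball]
        have h1 : 0 ≤ ψ.rOut / 2 ^ j := div_nonneg ψ.rOut_pos.le (by positivity)
        rw [ENNReal.toReal_mul, ENNReal.toReal_pow, ENNReal.toReal_ofReal h1]
        simp only [ENNReal.coe_toReal, NNReal.coe_real_pi, smul_eq_mul, mul_one]
        rw [div_pow, ← pow_mul, mul_comm j 2, pow_mul]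
        norm_num
        field_simp
    _ = 4 * N * (Real.pi * ψ.rOut ^ 2) := by
        rw [Finset.sum_const, Finset.card_range, nsmul_eq_mul]
        ring

lemma line_lower (hin : 2 * ψ.rIn = ψ.rOut) (N : ℕ) {w : ℂ} (hw : ‖w‖ = 1) (r : ℝ) :
    N * ψ.rOut ≤ ∫ t in Icc (r - ψ.rOut) (r + ψ.rOut), fN ψ N (((r - t : ℝ) : ℂ) * w) := by
  have hcont : ∀ j : ℕ, Continuous fun t : ℝ =>
      (2 : ℝ) ^ j * ψ ((2 ^ j : ℝ) • (((r - t : ℝ) : ℂ) * w)) := by
    intro j
    apply continuous_const.mul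
    apply ψ.continuous.comp
    fun_prop
  unfold fN
  rw [integral_finsetSum _ fun j _ => (hcont j).integrableOn_Icc]
  have hj : ∀ j ∈ Finset.range N, ψ.rOut ≤ ∫ t in Icc (r - ψ.rOut) (r + ψ.rOut),
      (2 : ℝ) ^ j * ψ ((2 ^ j : ℝ) • (((r - t : ℝ) : ℂ) * w)) := by
    intro j _
    have hδ : 0 < ψ.rIn / 2 ^ j := div_pos ψ.rIn_pos (by positivity)
    have hδ2 : ψ.rIn / 2 ^ j ≤ ψ.rOut :=
      (div_le_self ψ.rIn_pos.le (one_le_pow₀ (by norm_num))).trans ψ.rIn_lt_rOut.le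
    have h1 : ∫ t in Icc (r - ψ.rIn / 2 ^ j) (r + ψ.rIn / 2 ^ j),
        (2 : ℝ) ^ j * ψ ((2 ^ j : ℝ) • (((r - t : ℝ) : ℂ) * w)) = ψ.rOut := by
      have h2 : ∫ t in Icc (r - ψ.rIn / 2 ^ j) (r + ψ.rIn / 2 ^ j),
          (2 : ℝ) ^ j * ψ ((2 ^ j : ℝ) • (((r - t : ℝ) : ℂ) * w)) =
          ∫ t in Icc (r - ψ.rIn / 2 ^ j) (r + ψ.rIn / 2 ^ j), (2 : ℝ) ^ j := by
        apply setIntegral_congr_fun measurableSet_Icc
        intro t ht
        have h3 : ψ ((2 ^ j : ℝ) • (((r - t : ℝ) : ℂ) * w)) = 1 := by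
          apply ψ.one_of_mem_closedBall
          rw [mem_closedBall_zero_iff, norm_smul, norm_mul, hw, mul_one, Complex.norm_real,
            Real.norm_eq_abs, Real.norm_eq_abs, abs_of_pos (by positivity)]
          have h4 : |r - t| ≤ ψ.rIn / 2 ^ j := by
            rw [abs_le]
            constructor <;> linarith [ht.1, ht.2]
          rw [le_div_iff₀ (by positivity)] at h4
          linarith
        simp only [h3, mul_one]
      rw [h2, setIntegral_const, measureReal_def, Real.volume_Icc, ENNReal.toReal_ofReal (by linarith),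
        smul_eq_mul]
      have h5 : (r + ψ.rIn / 2 ^ j - (r - ψ.rIn / 2 ^ j)) * 2 ^ j = 2 * ψ.rIn := by
        field_simp
        ring
      rw [h5, hin]
    rw [← h1]
    apply setIntegral_mono_set (hcont j).integrableOn_Icc
    · exact Eventually.of_forall fun t => mul_nonneg (by positivity) ψ.nonneg
    · apply Eventually.of_forall
      intro t ht
      exact ⟨by linarith [ht.1], by linarith [ht.2]⟩
  calc (N : ℝ) * ψ.rOut = ∑ j ∈ Finset.range N, ψ.rOut := by
        rw [Finset.sum_const, Finset.card_range, nsmul_eq_mul]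
    _ ≤ _ := Finset.sum_le_sum hj

end Vale.Agent.P112
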