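import Mathlib

namespace Vale.Agent.P112

open MeasureTheory Set Filter Topology
open scoped NNReal ENNReal

/-- an expanding map up to the factor `K` enlarges measures of preimages by at most `K ^ 2` -/
lemma vol_preimage {K : ℝ≥0} {T : ℂ → ℂ} (hT : AntilipschitzWith K T) (E : Set ℂ) :
    volume (T ⁻¹' E) ≤ (K : ℝ≥0∞) ^ 2 * volume E := by
  have h2 : ((Module.finrank ℝ ℂ : ℕ) : ℝ) = 2 := by
    rw [Complex.finrank_real_complex]
    norm_num
  have h2' : (μH[2] : Measure ℂ).IsAddHaarMeasure := by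
    have h4 := isAddHaarMeasure_hausdorffMeasure (E := ℂ)
    rwa [h2] at h4
  have h3 := Measure.isAddLeftInvariant_eq_smul (volume : Measure ℂ) μH[2]
  set c := Measure.addHaarScalarFactor (volume : Measure ℂ) μH[2] with hc
  have h5 := hT.hausdorffMeasure_preimage_le (d := 2) (by norm_num) E
  have h6 : ((K : ℝ≥0∞) ^ (2 : ℝ)) = (K : ℝ≥0∞) ^ 2 := by
    simp
  rw [h6] at h5
  calc volume (T ⁻¹' E) = (c : ℝ≥0∞) * μH[2] (T ⁻¹' E) := by
        conv_lhs => rw [h3]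
        rfl
    _ ≤ (c : ℝ≥0∞) * ((K : ℝ≥0∞) ^ 2 * μH[2] E) := mul_le_mul_right h5 _
    _ = (K : ℝ≥0∞) ^ 2 * ((c : ℝ≥0∞) * μH[2] E) := by ring
    _ = (K : ℝ≥0∞) ^ 2 * volume E := by
        conv_rhs => rw [h3]
        rfl

lemma lintegral_comp_le {K : ℝ≥0} {T : ℂ → ℂ} (hT : AntilipschitzWith K T) (hm : Measurable T)
    {F : ℂ → ℝ≥0∞} (hF : Measurable F) :
    ∫⁻ x, F (T x) ≤ (K : ℝ≥0∞) ^ 2 * ∫⁻ x, F x := by
  rw [← lintegral_map hF hm]
  have h1 : Measure.map T volume ≤ (K : ℝ≥0∞) ^ 2 • (volume : Measure ℂ) := by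
    rw [Measure.le_iff]
    intro s hs
    rw [Measure.map_apply hm hs, Measure.smul_apply, smul_eq_mul]
    exact vol_preimage hT s
  calc ∫⁻ x, F x ∂(Measure.map T volume) ≤ ∫⁻ x, F x ∂((K : ℝ≥0∞) ^ 2 • (volume : Measure ℂ)) :=
        lintegral_mono' h1 le_rfl
    _ = (K : ℝ≥0∞) ^ 2 * ∫⁻ x, F x := by
        rw [lintegral_smul_measure, smul_eq_mul]

lemma anti_line {v : ℂ → ℂ} (hL : LipschitzWith 1 v) {t b : ℝ} (hb : b < 1) (ht : |t| ≤ b) :
    AntilipschitzWith (Real.toNNReal (1 - b)⁻¹) (fun x => x - t • v x) := by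
  apply AntilipschitzWith.of_le_mul_dist
  intro x y
  have h0 : 0 < 1 - b := by linarith
  rw [Real.coe_toNNReal _ (by positivity), inv_mul_eq_div, le_div_iff₀ h0, dist_eq_norm,
    dist_eq_norm]
  have h1 : ‖v x - v y‖ ≤ ‖x - y‖ := by
    have := (lipschitzWith_iff_dist_le_mul.1 hL) x y
    simpa [dist_eq_norm] using this
  have h2 : x - y = (x - t • v x - (y - t • v y)) + t • (v x - v y) := by
    rw [smul_sub]
    abel
  have h3 : ‖x - y‖ ≤ ‖x - t • v x - (y - t • v y)‖ + |t| * ‖v x - v y‖ := by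
    calc ‖x - y‖ = ‖(x - t • v x - (y - t • v y)) + t • (v x - v y)‖ := by rw [← h2]
      _ ≤ _ := norm_add_le _ _
      _ = _ := by rw [norm_smul, Real.norm_eq_abs]
  have h4 : |t| * ‖v x - v y‖ ≤ b * ‖x - y‖ :=
    mul_le_mul ht h1 (norm_nonneg _) ((abs_nonneg t).trans ht)
  nlinarith

end Vale.Agent.P112
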