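import Mathlib

namespace Vale.Agent.P112

open MeasureTheory Set Filter Topology

/-- a unit field of Lipschitz constant 1 which is radial on a small disc near radius `r0 > 1` -/
lemma exists_field {r0 κ : ℝ} (h1 : 1 < r0 - κ) :
    ∃ v : ℂ → ℂ, (∀ x, ‖v x‖ = 1) ∧ LipschitzWith 1 v ∧
      ∀ x ∈ Metric.ball (r0 : ℂ) κ, (‖x‖ : ℂ) * v x = x := by
  have hre : ∀ x ∈ Metric.ball (r0 : ℂ) κ, 1 < x.re := by
    intro x hx
    have h2 : ‖x - r0‖ < κ := by simpa [dist_eq_norm] using hx
    have h3 : |(x - r0).re| ≤ ‖x - r0‖ := Complex.abs_re_le_norm _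
    have h4 := (abs_le.1 h3).1
    simp only [Complex.sub_re, Complex.ofReal_re] at h4
    linarith
  have hlog : LipschitzOnWith 1 Complex.log (Metric.ball (r0 : ℂ) κ) := by
    apply (convex_ball (r0 : ℂ) κ).lipschitzOnWith_of_nnnorm_hasDerivWithin_le
      (f' := fun x => x⁻¹)
    · intro x hx
      have hx1 := hre x hx
      have hslit : x ∈ Complex.slitPlane := Or.inl (by linarith)
      exact (Complex.hasDerivAt_log hslit).hasDerivWithinAt
    · intro x hx
      have hx1 := hre x hx
      have hx2 : 1 ≤ ‖x‖ := le_trans hx1.le (Complex.re_le_norm x)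
      rw [← NNReal.coe_le_coe]
      simp only [coe_nnnorm, norm_inv, NNReal.coe_one]
      exact inv_le_one_of_one_le₀ hx2
  have harg : LipschitzOnWith 1 Complex.arg (Metric.ball (r0 : ℂ) κ) := by
    rw [lipschitzOnWith_iff_dist_le_mul] at hlog ⊢
    intro x hx y hy
    have h5 := hlog x hx y hy
    have h6 : dist (Complex.arg x) (Complex.arg y) ≤ dist (Complex.log x) (Complex.log y) := by
      rw [Real.dist_eq, dist_eq_norm]
      have h7 := Complex.abs_im_le_norm (Complex.log x - Complex.log y)
      simpa [Complex.sub_im, Complex.log_im] using h7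
    exact h6.trans h5
  obtain ⟨φ, hφ, hφeq⟩ := harg.extend_real
  refine ⟨fun x => Complex.exp (φ x * Complex.I), ?_, ?_, ?_⟩
  · intro x
    exact Complex.norm_exp_ofReal_mul_I (φ x)
  · rw [lipschitzWith_iff_dist_le_mul]
    intro x y
    have h8 : Complex.exp (φ x * Complex.I) - Complex.exp (φ y * Complex.I)
        = Complex.exp (φ y * Complex.I) * (Complex.exp (Complex.I * ((φ x - φ y : ℝ) : ℂ)) - 1) := by
      rw [mul_sub, ← Complex.exp_add, mul_one]
      congr 2
      push_cast
      ring
    have h9 := Real.norm_exp_I_mul_ofReal_sub_one_le (x := φ x - φ y)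
    have h10 := (lipschitzWith_iff_dist_le_mul.1 hφ) x y
    rw [dist_eq_norm, h8, norm_mul, Complex.norm_exp_ofReal_mul_I, one_mul]
    rw [Real.dist_eq] at h10
    rw [Real.norm_eq_abs] at h9
    exact h9.trans h10
  · intro x hx
    have h11 : φ x = Complex.arg x := (hφeq hx).symm
    simp only [h11]
    exact Complex.norm_mul_exp_arg_mul_I x

end Vale.Agent.P112
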