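import Vale.Agent.P112.Defs
import Vale.Agent.P112.Field
import Vale.Agent.P112.Bump

namespace Vale.Agent.P112

open MeasureTheory Set Filter Topology

section line

variable {ψ : ContDiffBump (0 : ℂ)} {v : ℂ → ℂ} {a r : ℝ} {x : ℂ}

lemma norm_line (hx : (r : ℂ) * v x = x) (t : ℝ) :
    x - t • v x = ((r - t : ℝ) : ℂ) * v x := by
  have h1 : (t • v x : ℂ) = (t : ℂ) * v x := by simp
  rw [h1]
  conv_lhs => rw [← hx]
  simp only [hx]
  push_cast
  rw [sub_mul, hx]

lemma line_zero (hv : ‖v x‖ = 1) (hx : (r : ℂ) * v x = x) (N : ℕ) {t : ℝ}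
    (ht : t ∉ Icc (r - ψ.rOut) (r + ψ.rOut)) : fN ψ N (x - t • v x) = 0 := by
  rw [norm_line hx]
  apply fN_zero
  rw [norm_mul, hv, mul_one, Complex.norm_real, Real.norm_eq_abs]
  by_contra h
  push Not at h
  rw [abs_lt] at h
  exact ht ⟨by linarith [h.2], by linarith [h.1]⟩

lemma truncH_eq (hv : ‖v x‖ = 1) (hx : (r : ℂ) * v x = x) (N : ℕ)
    (h1 : 1 / 2 < r - ψ.rOut) (h2 : r + ψ.rOut < a) {ε : ℝ} (hε : ε < 1 / 2) :
    truncH v a ε (fN ψ N) x =
      ∫ t in Icc (r - ψ.rOut) (r + ψ.rOut), fN ψ N (x - t • v x) / t := by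
  have hm : MeasurableSet {t : ℝ | ε < |t| ∧ |t| < a} :=
    (isOpen_lt continuous_const continuous_abs).measurableSet.inter
      (isOpen_lt continuous_abs continuous_const).measurableSet
  unfold truncH
  apply setIntegral_eq_of_subset_of_forall_sdiff_eq_zero hm
  · intro t ht
    have h3 : 0 < t := by linarith [ht.1]
    simp only [mem_ofPred_eq, abs_of_pos h3]
    exact ⟨by linarith [ht.1], by linarith [ht.2]⟩
  · intro t ht
    rw [line_zero hv hx N ht.2, zero_div]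

lemma line_cont (N : ℕ) : Continuous fun t : ℝ => fN ψ N (x - t • v x) := by
  apply (fN_continuous N).comp
  fun_prop

lemma value_lower (hin : 2 * ψ.rIn = ψ.rOut) (hv : ‖v x‖ = 1) (hx : (r : ℂ) * v x = x) (N : ℕ)
    (h1 : 1 / 2 < r - ψ.rOut) (h2 : r + ψ.rOut < a) :
    N * ψ.rOut / a ≤ ∫ t in Icc (r - ψ.rOut) (r + ψ.rOut), fN ψ N (x - t • v x) / t := by
  have h0 := ψ.rOut_pos
  have ha : 0 < a := by linarith
  have h3 : N * ψ.rOut / a ≤
      ∫ t in Icc (r - ψ.rOut) (r + ψ.rOut), fN ψ N (x - t • v x) / a := by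
    rw [integral_div]
    apply div_le_div_of_nonneg_right _ ha.le
    simp only [norm_line hx]
    exact line_lower hin N hv r
  refine h3.trans ?_
  apply setIntegral_mono_on
  · exact ((line_cont N).div_const a).integrableOn_Icc
  · apply ContinuousOn.integrableOn_Icc
    apply (line_cont N).continuousOn.div continuousOn_id
    intro t ht
    have : 0 < t := by linarith [ht.1]
    exact this.ne'
  · exact measurableSet_Icc
  · intro t ht
    have h4 : 0 < t := by linarith [ht.1]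
    exact div_le_div_of_nonneg_left (fN_nonneg _ _) h4 (by linarith [ht.2])

lemma hilbert_lower (hin : 2 * ψ.rIn = ψ.rOut) (hv : ‖v x‖ = 1) (hx : (r : ℂ) * v x = x) (N : ℕ)
    (h1 : 1 / 2 < r - ψ.rOut) (h2 : r + ψ.rOut < a) :
    N * ψ.rOut / a ≤ hilbertAlong v a (fN ψ N) x := by
  have h3 : Tendsto (fun ε => truncH v a ε (fN ψ N) x) (𝓝[>] (0 : ℝ))
      (𝓝 (∫ t in Icc (r - ψ.rOut) (r + ψ.rOut), fN ψ N (x - t • v x) / t)) := by
    apply tendsto_const_nhds.congr'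
    have h4 : ∀ᶠ ε : ℝ in 𝓝[>] (0 : ℝ), ε < 1 / 2 :=
      nhdsWithin_le_nhds (Iio_mem_nhds (by norm_num))
    filter_upwards [h4] with ε hε
    exact (truncH_eq hv hx N h1 h2 hε).symm
  unfold hilbertAlong
  rw [h3.limUnder_eq]
  exact value_lower hin hv hx N h1 h2

lemma max_lower (hin : 2 * ψ.rIn = ψ.rOut) (hv : ‖v x‖ = 1) (hx : (r : ℂ) * v x = x) (N : ℕ)
    (h1 : 1 / 2 < r - ψ.rOut) (h2 : r + ψ.rOut < a) :
    ENNReal.ofReal (N * ψ.rOut / (2 * a)) ≤ maxAlong v a (fN ψ N) x := by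
  have h0 := ψ.rOut_pos
  have ha : 0 < a := by linarith
  have hs : 0 < r + ψ.rOut := by linarith
  have h5 : r + ψ.rOut ∈ Ioo (0 : ℝ) a := ⟨hs, h2⟩
  have h3 : N * ψ.rOut ≤ ∫ t in (-(r + ψ.rOut))..(r + ψ.rOut), |fN ψ N (x - t • v x)| := by
    rw [intervalIntegral.integral_of_le (by linarith), ← integral_Icc_eq_integral_Ioc]
    refine (line_lower hin N hv r).trans ?_
    simp only [abs_of_nonneg (fN_nonneg _ _), norm_line hx]
    apply setIntegral_mono_set
    · apply Continuous.integrableOn_Icc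
      apply (fN_continuous N).comp
      fun_prop
    · exact Eventually.of_forall fun t => fN_nonneg _ _
    · apply Eventually.of_forall
      intro t ht
      exact ⟨by linarith [ht.1], ht.2⟩
  refine le_trans ?_ (le_iSup₂ (f := fun s (_ : s ∈ Ioo (0 : ℝ) a) =>
    ENNReal.ofReal ((∫ t in (-s)..s, |fN ψ N (x - t • v x)|) / (2 * s))) (r + ψ.rOut) h5)
  apply ENNReal.ofReal_le_ofReal
  have h6 : 0 ≤ (N : ℝ) * ψ.rOut := by positivity
  calc N * ψ.rOut / (2 * a) ≤ N * ψ.rOut / (2 * (r + ψ.rOut)) :=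
        div_le_div_of_nonneg_left h6 (by linarith) (by linarith)
    _ ≤ _ := div_le_div_of_nonneg_right h3 (by linarith)

end line

theorem main (a : ℝ) (ha : 1 < a) :
    ∃ v : ℂ → ℂ, (∀ x, ‖v x‖ = 1) ∧ LipschitzWith 1 v ∧
      ∀ C : ℝ, ∃ (f : SchwartzMap ℂ ℝ) (lam : ℝ), 0 < lam ∧
        ENNReal.ofReal (C / lam ^ 2 * ∫ x, f x ^ 2) <
          volume {x : ℂ | lam < |hilbertAlong v a f x|} ∧
        ENNReal.ofReal (C / lam ^ 2 * ∫ x, f x ^ 2) <
          volume {x : ℂ | ENNReal.ofReal lam < maxAlong v a f x} := by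
  set r0 : ℝ := (1 + a) / 2 with hr0
  set κ : ℝ := (a - 1) / 8 with hκ
  have hκ0 : 0 < κ := by rw [hκ]; linarith
  obtain ⟨v, hv, hlip, hrad⟩ := exists_field (r0 := r0) (κ := κ) (by rw [hr0, hκ]; linarith)
  refine ⟨v, hv, hlip, ?_⟩
  intro C
  set η : ℝ := min κ (1 / 2) with hη
  have hη0 : 0 < η := lt_min hκ0 (by norm_num)
  have hη1 : η ≤ κ := min_le_left _ _
  have hη2 : η ≤ 1 / 2 := min_le_right _ _
  let ψ : ContDiffBump (0 : ℂ) := ⟨η / 2, η, by linarith, by linarith⟩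
  have hout : ψ.rOut = η := rfl
  have hin : 2 * ψ.rIn = ψ.rOut := by
    change 2 * (η / 2) = η
    ring
  have ha0 : 0 < a := by linarith
  obtain ⟨n, hn⟩ := exists_nat_gt (64 * |C| * a ^ 2 / κ ^ 2)
  set N : ℕ := n + 1 with hN
  have hN1 : 64 * |C| * a ^ 2 / κ ^ 2 < (N : ℝ) := by
    rw [hN]; push_cast; linarith
  have hN0 : 0 < (N : ℝ) := by rw [hN]; positivity
  have hS : ∀ x ∈ Metric.ball (r0 : ℂ) κ, 1 / 2 < ‖x‖ - ψ.rOut ∧ ‖x‖ + ψ.rOut < a := by
    intro x hx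
    have h2 : ‖x - r0‖ < κ := by simpa [dist_eq_norm] using hx
    have h3 : |‖x‖ - ‖(r0 : ℂ)‖| ≤ ‖x - r0‖ := abs_norm_sub_norm_le _ _
    have h4 : ‖(r0 : ℂ)‖ = r0 := by
      rw [Complex.norm_real, Real.norm_eq_abs, abs_of_pos (by rw [hr0]; linarith)]
    rw [h4, abs_le] at h3
    rw [hout]
    constructor
    · have : r0 - κ > 1 := by rw [hr0, hκ]; linarith
      linarith [h3.1]
    · have : r0 + 2 * κ < a := by rw [hr0, hκ]; linarith
      linarith [h3.2]
  let f : SchwartzMap ℂ ℝ :=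
    (fN_compact (ψ := ψ) N).toSchwartzMap (fN_contDiff N)
  have hf : ∀ x, f x = fN ψ N x := fun x => rfl
  have hf' : (f : ℂ → ℝ) = fN ψ N := rfl
  set lam : ℝ := N * η / (4 * a) with hlam
  have hlam0 : 0 < lam := by rw [hlam]; positivity
  have hsq : ∫ x, f x ^ 2 ≤ 4 * N * (Real.pi * η ^ 2) := integral_sq_le (ψ := ψ) N
  have hsq0 : 0 ≤ ∫ x, f x ^ 2 := integral_nonneg fun x => sq_nonneg _
  have hkey : C / lam ^ 2 * ∫ x, f x ^ 2 < Real.pi * κ ^ 2 := by
    have h1 : C / lam ^ 2 * ∫ x, f x ^ 2 ≤ |C| / lam ^ 2 * (4 * N * (Real.pi * η ^ 2)) := by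
      calc C / lam ^ 2 * ∫ x, f x ^ 2 ≤ |C| / lam ^ 2 * ∫ x, f x ^ 2 := by
            apply mul_le_mul_of_nonneg_right _ hsq0
            exact div_le_div_of_nonneg_right (le_abs_self C) (by positivity)
        _ ≤ _ := mul_le_mul_of_nonneg_left hsq (by positivity)
    have h2 : |C| / lam ^ 2 * (4 * N * (Real.pi * η ^ 2)) =
        Real.pi * (64 * |C| * a ^ 2 / N) := by
      rw [hlam]
      field_simp
      ring
    have h3 : 64 * |C| * a ^ 2 / N < κ ^ 2 := by
      rw [div_lt_iff₀ (by positivity)] at hN1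
      rw [div_lt_iff₀ hN0]
      linarith
    calc C / lam ^ 2 * ∫ x, f x ^ 2 ≤ Real.pi * (64 * |C| * a ^ 2 / N) := h1.trans_eq h2
      _ < Real.pi * κ ^ 2 := mul_lt_mul_of_pos_left h3 Real.pi_pos
  have hvol : volume (Metric.ball (r0 : ℂ) κ) = ENNReal.ofReal (Real.pi * κ ^ 2) := by
    rw [Complex.volume_ball, ENNReal.ofReal_mul Real.pi_pos.le, ENNReal.ofReal_pow hκ0.le,
      mul_comm]
    congr 1
    rw [← NNReal.coe_real_pi, ENNReal.ofReal_coe_nnreal]
  have hlt : ENNReal.ofReal (C / lam ^ 2 * ∫ x, f x ^ 2) < volume (Metric.ball (r0 : ℂ) κ) := by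
    rw [hvol]
    exact (ENNReal.ofReal_lt_ofReal_iff (by positivity)).2 hkey
  refine ⟨f, lam, hlam0, hlt.trans_le (measure_mono ?_), hlt.trans_le (measure_mono ?_)⟩
  · intro x hx
    have h1 := hilbert_lower (ψ := ψ) (a := a) hin (hv x) (hrad x hx) N (hS x hx).1 (hS x hx).2
    rw [hout] at h1
    have h2 : lam < N * η / a := by
      rw [hlam]
      apply div_lt_div_of_pos_left (by positivity) ha0
      linarith
    simp only [mem_ofPred_eq, hf']
    exact (h2.trans_le h1).trans_le (le_abs_self _)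
  · intro x hx
    have h1 := max_lower (ψ := ψ) (a := a) hin (hv x) (hrad x hx) N (hS x hx).1 (hS x hx).2
    rw [hout] at h1
    have h2 : lam < N * η / (2 * a) := by
      rw [hlam]
      apply div_lt_div_of_pos_left (by positivity) (by linarith)
      linarith
    simp only [mem_ofPred_eq, hf']
    refine lt_of_lt_of_le ?_ h1
    exact (ENNReal.ofReal_lt_ofReal_iff (by positivity)).2 h2

end Vale.Agent.P112
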