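import Vale.Agent.P112.Defs

namespace Vale.Agent.P112

open MeasureTheory

/-- The weak `(2,2)` bound for `H_{v,a}` on Schwartz functions, uniform over all unit fields `v` of
Lipschitz constant at most `1`. Stein's conjecture (Q1) is the existence of an `a > 0` with
`WeakBound a`. -/
def WeakBound (a : ℝ) : Prop :=
  ∃ C : ℝ, ∀ v : ℂ → ℂ, (∀ x, ‖v x‖ = 1) → LipschitzWith 1 v →
    ∀ (f : SchwartzMap ℂ ℝ) (lam : ℝ), 0 < lam →
      volume {x : ℂ | lam < |hilbertAlong v a f x|} ≤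
        ENNReal.ofReal (C / lam ^ 2 * ∫ x, f x ^ 2)

/-- The same weak `(2,2)` bound for the maximal operator `M_{v,a}`. -/
def WeakBoundMax (a : ℝ) : Prop :=
  ∃ C : ℝ, ∀ v : ℂ → ℂ, (∀ x, ‖v x‖ = 1) → LipschitzWith 1 v →
    ∀ (f : SchwartzMap ℂ ℝ) (lam : ℝ), 0 < lam →
      volume {x : ℂ | ENNReal.ofReal lam < maxAlong v a f x} ≤
        ENNReal.ofReal (C / lam ^ 2 * ∫ x, f x ^ 2)

end Vale.Agent.P112
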