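import Vale.Agent.P112.ShellOne
import Vale.Agent.P112.Crit

namespace Vale.Agent.P112

open MeasureTheory Set Filter Topology
open scoped NNReal ENNReal

theorem transfer_one {a b : ℝ} (ha : 0 < a) (ha1 : a ≤ 1) (hb : 0 < b) (hb1 : b ≤ 1)
    (h : WeakBound a) : WeakBound b := by
  rcases eq_or_ne a b with hab | hab
  · rwa [← hab]
  obtain ⟨C, hC⟩ := h
  obtain ⟨ω, hω, hω2⟩ := sg_finite
  set p := min a b with hp
  set q := max a b with hq
  have hp0 : 0 < p := lt_min ha hb
  have hq1 : q ≤ 1 := max_le ha1 hb1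
  refine ⟨4 * |C| + 4 * (ω / p) ^ 2, ?_⟩
  intro v hv hL f lam hlam
  have hI0 : 0 ≤ ∫ x, f x ^ 2 := integral_nonneg fun x => sq_nonneg _
  have hsub : {x : ℂ | lam < |hilbertAlong v b f x|} ⊆
      {x : ℂ | lam / 2 < |hilbertAlong v a f x|} ∪ {x : ℂ | lam / 2 < |shellH v p q f x|} := by
    intro x hx
    have h1 : lam < |hilbertAlong v b f x| := hx
    have h2 := hilbert_close (v := v) f x ha hb hab
    by_contra h3
    rw [mem_union, not_or] at h3
    have h4 : |hilbertAlong v a f x| ≤ lam / 2 := not_lt.1 h3.1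
    have h5 : |shellH v p q f x| ≤ lam / 2 := not_lt.1 h3.2
    linarith
  have h6 := hC v hv hL f (lam / 2) (by positivity)
  have h7 := shell_weak_one hω hω2 hv hL f hp0 hq1 (mu := lam / 2) (by positivity)
  calc volume {x : ℂ | lam < |hilbertAlong v b f x|}
      ≤ volume {x : ℂ | lam / 2 < |hilbertAlong v a f x|} +
        volume {x : ℂ | lam / 2 < |shellH v p q f x|} :=
        (measure_mono hsub).trans (measure_union_le _ _)
    _ ≤ ENNReal.ofReal (|C| / (lam / 2) ^ 2 * ∫ x, f x ^ 2) +
        ENNReal.ofReal ((ω / p) ^ 2 * (∫ x, f x ^ 2) / (lam / 2) ^ 2) := by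
        apply add_le_add _ h7
        refine h6.trans (ENNReal.ofReal_le_ofReal ?_)
        apply mul_le_mul_of_nonneg_right _ hI0
        exact div_le_div_of_nonneg_right (le_abs_self C) (by positivity)
    _ = ENNReal.ofReal ((4 * |C| + 4 * (ω / p) ^ 2) / lam ^ 2 * ∫ x, f x ^ 2) := by
        rw [← ENNReal.ofReal_add (by positivity) (by positivity)]
        congr 1
        field_simp
        ring

end Vale.Agent.P112
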