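import Mathlib

namespace Vale.Agent.P112

open MeasureTheory Set Filter Topology

/-! The plane is `ℂ`, with its Euclidean norm and Lebesgue measure. -/

/-- The truncated directional Hilbert transform `H^ε_{v,a} f (x)`. -/
noncomputable def truncH (v : ℂ → ℂ) (a ε : ℝ) (f : ℂ → ℝ) (x : ℂ) : ℝ :=
  ∫ t in {t : ℝ | ε < |t| ∧ |t| < a}, f (x - t • v x) / t

/-- The principal value `H_{v,a} f (x)`, the limit of `H^ε_{v,a} f (x)` as `ε` decreases to `0`. -/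
noncomputable def hilbertAlong (v : ℂ → ℂ) (a : ℝ) (f : ℂ → ℝ) (x : ℂ) : ℝ :=
  limUnder (𝓝[>] (0 : ℝ)) fun ε => truncH v a ε f x

/-- The maximal operator `M_{v,a} f (x)`. -/
noncomputable def maxAlong (v : ℂ → ℂ) (a : ℝ) (f : ℂ → ℝ) (x : ℂ) : ENNReal :=
  ⨆ s ∈ Ioo (0 : ℝ) a, ENNReal.ofReal ((∫ t in (-s)..s, |f (x - t • v x)|) / (2 * s))

end Vale.Agent.P112
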