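import Mathlib

namespace Vale.Agent.P112

open MeasureTheory Set Filter Topology
open scoped NNReal ENNReal

/-- the Jacobian of `x - t v(x)` for a unit field of Lipschitz constant one -/
lemma det_bound {A : ℂ →L[ℝ] ℂ} {u : ℂ} (hu : ‖u‖ = 1) (hA : ‖A‖ ≤ 1)
    (horth : ∀ h, u.re * (A h).re + u.im * (A h).im = 0) (t : ℝ) :
    1 - |t| ≤ |(ContinuousLinearMap.id ℝ ℂ - t • A).det| := by
  have hu2 : u.re ^ 2 + u.im ^ 2 = 1 := by
    have := Complex.normSq_eq_norm_sq u
    rw [hu, Complex.normSq_apply] at this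
    linarith
  set p := (A 1).re with hp
  set q := (A 1).im with hq
  set r := (A Complex.I).re with hr
  set s := (A Complex.I).im with hs
  have h1 : u.re * p + u.im * q = 0 := horth 1
  have h2 : u.re * r + u.im * s = 0 := horth Complex.I
  have hdet : (ContinuousLinearMap.id ℝ ℂ - t • A).det =
      (1 - t * p) * (1 - t * s) - t * r * (t * q) := by
    unfold ContinuousLinearMap.det
    rw [← LinearMap.det_toMatrix Complex.basisOneI, Matrix.det_fin_two]
    simp [LinearMap.toMatrix_apply, hp, hq, hr, hs]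
  have h3 : p * s - q * r = 0 := by
    have h4 : (u.re ^ 2 + u.im ^ 2) * (p * s - q * r) = 0 := by
      linear_combination (u.re * s - u.im * r) * h1 + (u.im * p - u.re * q) * h2
    rwa [hu2, one_mul] at h4
  have hdet2 : (ContinuousLinearMap.id ℝ ℂ - t • A).det = 1 - t * (p + s) := by
    rw [hdet]
    linear_combination t ^ 2 * h3
  -- the trace
  set w : ℂ := ((-u.im : ℝ) : ℂ) * 1 + ((u.re : ℝ) : ℂ) * Complex.I with hw
  have hAw : A w = (-u.im) • A 1 + u.re • A Complex.I := by
    have : w = (-u.im) • (1 : ℂ) + u.re • Complex.I := by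
      rw [hw]
      simp
    rw [this, map_add, map_smul, map_smul]
  have hwn : ‖w‖ = 1 := by
    have h5 : ‖w‖ ^ 2 = 1 := by
      rw [← Complex.normSq_eq_norm_sq, Complex.normSq_apply, hw]
      simp
      linarith
    have h6 := norm_nonneg w
    nlinarith
  have hAwn : ‖A w‖ ≤ 1 := by
    have := A.le_opNorm w
    rw [hwn, mul_one] at this
    exact this.trans hA
  have hX : (A w).re ^ 2 + (A w).im ^ 2 ≤ 1 := by
    have h5 := Complex.normSq_eq_norm_sq (A w)
    rw [Complex.normSq_apply] at h5
    have h6 := norm_nonneg (A w)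
    nlinarith
  have htr : p + s = -u.im * (A w).re + u.re * (A w).im := by
    have h5 : (A w).re = -u.im * p + u.re * r := by
      rw [hAw]
      simp [hp, hr]
    have h6 : (A w).im = -u.im * q + u.re * s := by
      rw [hAw]
      simp [hq, hs]
    rw [h5, h6]
    linear_combination (-p - s) * hu2 + u.re * h1 + u.im * h2
  have htr2 : |p + s| ≤ 1 := by
    rw [abs_le_one_iff_mul_self_le_one, htr]
    nlinarith [sq_nonneg (u.re * (A w).re + u.im * (A w).im)]
  rw [hdet2]
  have h7 : |t * (p + s)| ≤ |t| := by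
    rw [abs_mul]
    nlinarith [abs_nonneg t]
  have h8 := abs_le.1 h7
  exact le_trans (by linarith) (le_abs_self _)

lemma orth_fderiv {v : ℂ → ℂ} (hv : ∀ x, ‖v x‖ = 1) {A : ℂ →L[ℝ] ℂ} {x : ℂ}
    (hA : HasFDerivAt v A x) (h : ℂ) : (v x).re * (A h).re + (v x).im * (A h).im = 0 := by
  have h1 : HasFDerivAt (fun y => (v y).re) (Complex.reCLM.comp A) x :=
    Complex.reCLM.hasFDerivAt.comp x hA
  have h2 : HasFDerivAt (fun y => (v y).im) (Complex.imCLM.comp A) x :=
    Complex.imCLM.hasFDerivAt.comp x hA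
  have h3 := (h1.mul h1).add (h2.mul h2)
  have h4 : ((fun y => (v y).re) * (fun y => (v y).re) + (fun y => (v y).im) *
      (fun y => (v y).im)) = fun _ => (1 : ℝ) := by
    funext y
    have := Complex.normSq_eq_norm_sq (v y)
    rw [hv y, Complex.normSq_apply] at this
    simpa using this
  rw [h4] at h3
  have h5 := h3.unique (hasFDerivAt_const (1 : ℝ) x)
  have h6 := congrArg (fun L : ℂ →L[ℝ] ℝ => L h) h5
  simp at h6
  linarith

lemma vol_preimage_one {v : ℂ → ℂ} (hv : ∀ x, ‖v x‖ = 1) (hL : LipschitzWith 1 v) {t : ℝ}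
    (ht : |t| < 1) (hinj : Function.Injective (fun x => x - t • v x)) {E : Set ℂ}
    (hE : MeasurableSet E) :
    ENNReal.ofReal (1 - |t|) * volume ((fun x => x - t • v x) ⁻¹' E) ≤ volume E := by
  set T : ℂ → ℂ := fun x => x - t • v x with hT
  have hTc : Continuous T := by
    have : Continuous v := hL.continuous
    fun_prop
  set D : Set ℂ := {x | DifferentiableAt ℝ v x} with hD
  have hDm : MeasurableSet D := measurableSet_of_differentiableAt ℝ v
  have hD0 : volume Dᶜ = 0 := by
    have := hL.ae_differentiableAt (μ := (volume : Measure ℂ))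
    rw [ae_iff] at this
    exact this
  set s := T ⁻¹' E ∩ D with hs
  have hsm : MeasurableSet s := (hTc.measurable hE).inter hDm
  have hvol : volume (T ⁻¹' E) ≤ volume s := by
    have h1 : T ⁻¹' E ⊆ s ∪ Dᶜ := by
      intro x hx
      by_cases hxD : x ∈ D
      · exact Or.inl ⟨hx, hxD⟩
      · exact Or.inr hxD
    calc volume (T ⁻¹' E) ≤ volume (s ∪ Dᶜ) := measure_mono h1
      _ ≤ volume s + volume Dᶜ := measure_union_le _ _
      _ = volume s := by rw [hD0, add_zero]
  have hder : ∀ x ∈ s, HasFDerivWithinAt T (ContinuousLinearMap.id ℝ ℂ - t • fderiv ℝ v x) s x := by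
    intro x hx
    have hx1 : DifferentiableAt ℝ v x := hx.2
    have h2 := (hasFDerivAt_id (𝕜 := ℝ) x).sub (hx1.hasFDerivAt.const_smul t)
    exact h2.hasFDerivWithinAt
  have harea := lintegral_abs_det_fderiv_eq_addHaar_image (volume : Measure ℂ) hsm hder
    hinj.injOn
  calc ENNReal.ofReal (1 - |t|) * volume (T ⁻¹' E) ≤ ENNReal.ofReal (1 - |t|) * volume s :=
        mul_le_mul_right hvol _
    _ = ∫⁻ x in s, ENNReal.ofReal (1 - |t|) := by rw [setLIntegral_const]
    _ ≤ ∫⁻ x in s, ENNReal.ofReal |(ContinuousLinearMap.id ℝ ℂ - t • fderiv ℝ v x).det| := by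
        apply setLIntegral_mono' hsm
        intro x hx
        have hx1 : DifferentiableAt ℝ v x := hx.2
        apply ENNReal.ofReal_le_ofReal
        apply det_bound (hv x) _ (orth_fderiv hv hx1.hasFDerivAt) t
        simpa using norm_fderiv_le_of_lipschitz ℝ hL (x₀ := x)
    _ = volume (T '' s) := harea
    _ ≤ volume E := by
        apply measure_mono
        rintro _ ⟨x, hx, rfl⟩
        exact hx.1

lemma lintegral_comp_le_one {v : ℂ → ℂ} (hv : ∀ x, ‖v x‖ = 1) (hL : LipschitzWith 1 v) {t : ℝ}
    (ht : |t| < 1) (hinj : Function.Injective (fun x => x - t • v x)) {F : ℂ → ℝ≥0∞}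
    (hF : Measurable F) :
    ENNReal.ofReal (1 - |t|) * ∫⁻ x, F (x - t • v x) ≤ ∫⁻ x, F x := by
  have hm : Measurable (fun x => x - t • v x) := by
    have : Continuous v := hL.continuous
    have h2 : Continuous (fun x => x - t • v x) := by fun_prop
    exact h2.measurable
  rw [← lintegral_map hF hm, ← smul_eq_mul, ← lintegral_smul_measure]
  apply lintegral_mono' _ le_rfl
  rw [Measure.le_iff]
  intro s hs
  rw [Measure.smul_apply, smul_eq_mul, Measure.map_apply hm hs]
  exact vol_preimage_one hv hL ht hinj hs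

end Vale.Agent.P112
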