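import Vale.Agent.P112.Split
import Vale.Agent.P112.Change

namespace Vale.Agent.P112

open MeasureTheory Set Filter Topology
open scoped NNReal ENNReal

lemma shell_sub (p q : ℝ) : shell p q ⊆ Icc (-q) q := by
  intro t ht
  exact abs_le.1 ht.2.le

lemma vol_shell (p q : ℝ) : volume (shell p q) ≤ ENNReal.ofReal (2 * q) := by
  refine (measure_mono (shell_sub p q)).trans ?_
  rw [Real.volume_Icc]
  apply ENNReal.ofReal_le_ofReal
  linarith

lemma real_shell (p : ℝ) {q : ℝ} (hq : 0 < q) : volume.real (shell p q) ≤ 2 * q := by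
  rw [measureReal_def]
  have h1 := ENNReal.toReal_mono ENNReal.ofReal_ne_top (vol_shell p q)
  rwa [ENNReal.toReal_ofReal (by linarith)] at h1

/-- Cauchy-Schwarz on the shell -/
lemma shellH_sq_le {v : ℂ → ℂ} {f : ℂ → ℝ} (hf : Continuous f) (x : ℂ) {p q : ℝ} (hp : 0 < p)
    (hq : p < q) :
    shellH v p q f x ^ 2 ≤ 2 * q / p ^ 2 * ∫ t in shell p q, f (x - t • v x) ^ 2 := by
  have hg : Continuous fun t : ℝ => f (x - t • v x) := by
    apply hf.comp
    fun_prop
  set g : ℝ → ℝ := fun t => f (x - t • v x) with hgdef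
  set S := shell p q with hS
  set m := volume.real S with hm
  have hm0 : 0 ≤ m := measureReal_nonneg
  have hm2 : m ≤ 2 * q := real_shell p (hp.trans hq)
  have hfin : volume S ≠ ∞ := ((vol_shell p q).trans_lt ENNReal.ofReal_lt_top).ne
  have hi1 : IntegrableOn (fun t => g t / t) S := integrable_div hg hp (meas_shell p q)
    (fun t ht => ⟨ht.1, ht.2.le⟩)
  have hi2 : IntegrableOn (fun t => (g t / t) ^ 2) S := by
    have h1 : ∀ t ∈ S, ‖(g t / t) ^ 2‖ = ‖g t / t‖ ^ 2 := fun t _ => norm_pow _ _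
    obtain ⟨M, hM⟩ := (isCompact_Icc (a := -q) (b := q)).exists_bound_of_continuousOn
      hg.continuousOn
    refine Measure.integrableOn_of_bounded (M := (M / p) ^ 2) hfin
      ((hg.measurable.div measurable_id).pow_const 2).aestronglyMeasurable ?_
    rw [ae_restrict_iff' (meas_shell p q)]
    apply Eventually.of_forall
    intro t ht
    rw [h1 t ht]
    have h2 := hM t (shell_sub p q ht)
    apply pow_le_pow_left₀ (norm_nonneg _)
    rw [norm_div, Real.norm_eq_abs t]
    exact div_le_div₀ ((norm_nonneg _).trans h2) h2 hp ht.1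
  have hi3 : IntegrableOn (fun t => g t ^ 2) S :=
    ((hg.pow 2).integrableOn_Icc (a := -q) (b := q)).mono_set (shell_sub p q)
  set c := ∫ t in S, g t / t with hc
  have hcs : c ^ 2 ≤ m * ∫ t in S, (g t / t) ^ 2 := by
    have h1 : 0 ≤ ∫ t in S, (m * (g t / t) - c) ^ 2 := integral_nonneg fun t => sq_nonneg _
    have h2 : ∫ t in S, (m * (g t / t) - c) ^ 2 =
        m ^ 2 * (∫ t in S, (g t / t) ^ 2) - 2 * m * c * c + m * c ^ 2 := by
      have h3 : ∀ t : ℝ, (m * (g t / t) - c) ^ 2 =
          (m ^ 2 * (g t / t) ^ 2 - 2 * m * c * (g t / t)) + c ^ 2 := fun t => by ring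
      simp only [h3]
      rw [integral_add, integral_sub, integral_const_mul, integral_const_mul, setIntegral_const,
        smul_eq_mul]
      · exact hi2.const_mul _
      · exact hi1.const_mul _
      · exact (hi2.const_mul _).sub (hi1.const_mul _)
      · exact integrableOn_const hfin
    rw [h2] at h1
    rcases eq_or_lt_of_le hm0 with h0 | h0
    · have h4 : volume S = 0 := by
        have := h0.symm
        rw [hm, measureReal_def, ENNReal.toReal_eq_zero_iff] at this
        exact this.resolve_right hfin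
      have h5 : c = 0 := by
        rw [hc]
        exact setIntegral_measure_zero _ h4
      rw [h5, ← h0]
      simp
    · have h6 : 0 ≤ m * (m * (∫ t in S, (g t / t) ^ 2) - c ^ 2) := by
        calc (0 : ℝ) ≤ _ := h1
          _ = _ := by ring
      have h7 := nonneg_of_mul_nonneg_right h6 h0
      linarith
  have hsq : ∫ t in S, (g t / t) ^ 2 ≤ (∫ t in S, g t ^ 2) / p ^ 2 := by
    rw [← integral_div]
    apply setIntegral_mono_on hi2 (hi3.div_const _) (meas_shell p q)
    intro t ht
    rw [div_pow]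
    apply div_le_div_of_nonneg_left (sq_nonneg _) (by positivity)
    rw [← sq_abs t]
    exact pow_le_pow_left₀ hp.le ht.1 2
  have hI : 0 ≤ ∫ t in S, g t ^ 2 := integral_nonneg fun t => sq_nonneg _
  calc shellH v p q f x ^ 2 = c ^ 2 := rfl
    _ ≤ m * ∫ t in S, (g t / t) ^ 2 := hcs
    _ ≤ m * ((∫ t in S, g t ^ 2) / p ^ 2) := mul_le_mul_of_nonneg_left hsq hm0
    _ ≤ (2 * q) * ((∫ t in S, g t ^ 2) / p ^ 2) :=
        mul_le_mul_of_nonneg_right hm2 (by positivity)
    _ = 2 * q / p ^ 2 * ∫ t in S, g t ^ 2 := by ring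

/-- weak bound for the shell part -/
lemma shell_weak {v : ℂ → ℂ} (hL : LipschitzWith 1 v) (f : SchwartzMap ℂ ℝ) {p q : ℝ}
    (hp : 0 < p) (hq : p < q) (hq1 : q < 1) {mu : ℝ} (hmu : 0 < mu) :
    volume {x : ℂ | mu < |shellH v p q f x|} ≤
      ENNReal.ofReal ((2 * q / p / (1 - q)) ^ 2 * (∫ x, f x ^ 2) / mu ^ 2) := by
  have hq0 : 0 < q := hp.trans hq
  have h1q : 0 < 1 - q := by linarith
  have hv : Continuous v := hL.continuous
  have hfsq : Integrable fun x : ℂ => f x ^ 2 := (f.memLp 2 volume).integrable_sq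
  have hI0 : 0 ≤ ∫ x, f x ^ 2 := integral_nonneg fun x => sq_nonneg _
  set F : ℂ → ℝ≥0∞ := fun y => ENNReal.ofReal (f y ^ 2) with hF
  have hFm : Measurable F := (f.continuous.pow 2).measurable.ennreal_ofReal
  have hFI : ∫⁻ x, F x = ENNReal.ofReal (∫ x, f x ^ 2) :=
    (ofReal_integral_eq_lintegral_ofReal hfsq (Eventually.of_forall fun x => sq_nonneg _)).symm
  have hmeas : Measurable (Function.uncurry fun (x : ℂ) (t : ℝ) => F (x - t • v x)) := by
    apply hFm.comp
    have : Continuous fun z : ℂ × ℝ => z.1 - z.2 • v z.1 := by fun_prop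
    exact this.measurable
  set G : ℂ → ℝ≥0∞ := fun x => ∫⁻ t in shell p q, F (x - t • v x) with hG
  have hGm : Measurable G := hmeas.lintegral_prod_right'
  set K : ℝ≥0 := Real.toNNReal (1 - q)⁻¹ with hK
  have hKe : (K : ℝ≥0∞) ^ 2 = ENNReal.ofReal ((1 / (1 - q)) ^ 2) := by
    rw [hK, one_div, ENNReal.ofReal_pow (by positivity)]
    rfl
  have hGI : ∫⁻ x, G x ≤ ENNReal.ofReal ((1 / (1 - q)) ^ 2 * (∫ x, f x ^ 2) * (2 * q)) := by
    calc ∫⁻ x, G x = ∫⁻ t in shell p q, ∫⁻ x, F (x - t • v x) :=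
          lintegral_lintegral_swap hmeas.aemeasurable
      _ ≤ ∫⁻ t in shell p q, (K : ℝ≥0∞) ^ 2 * ∫⁻ x, F x := by
          apply setLIntegral_mono' (meas_shell p q)
          intro t ht
          apply lintegral_comp_le (anti_line hL hq1 ht.2.le) _ hFm
          have : Continuous fun x : ℂ => x - t • v x := by fun_prop
          exact this.measurable
      _ = (K : ℝ≥0∞) ^ 2 * (∫⁻ x, F x) * volume (shell p q) := by
          rw [setLIntegral_const]
      _ ≤ (K : ℝ≥0∞) ^ 2 * (∫⁻ x, F x) * ENNReal.ofReal (2 * q) :=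
          mul_le_mul_right (vol_shell p q) _
      _ = _ := by
          rw [hKe, hFI, ← ENNReal.ofReal_mul (by positivity), ← ENNReal.ofReal_mul (by positivity)]
  have hpt : ∀ x, ENNReal.ofReal (shellH v p q f x ^ 2) ≤ ENNReal.ofReal (2 * q / p ^ 2) * G x := by
    intro x
    have hg : Continuous fun t : ℝ => f (x - t • v x) ^ 2 := by
      apply Continuous.pow
      apply f.continuous.comp
      fun_prop
    have hi : IntegrableOn (fun t : ℝ => f (x - t • v x) ^ 2) (shell p q) :=
      (hg.integrableOn_Icc (a := -q) (b := q)).mono_set (shell_sub p q)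
    have h1 := ENNReal.ofReal_le_ofReal (shellH_sq_le (v := v) f.continuous x hp hq)
    rw [ENNReal.ofReal_mul (by positivity), ofReal_integral_eq_lintegral_ofReal hi
      (Eventually.of_forall fun x => sq_nonneg _)] at h1
    exact h1
  have hsub : {x : ℂ | mu < |shellH v p q f x|} ⊆
      {x : ℂ | ENNReal.ofReal (mu ^ 2) ≤ ENNReal.ofReal (2 * q / p ^ 2) * G x} := by
    intro x hx
    refine le_trans ?_ (hpt x)
    apply ENNReal.ofReal_le_ofReal
    rw [← sq_abs (shellH v p q f x)]
    exact pow_le_pow_left₀ hmu.le (le_of_lt hx) 2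
  have hch := meas_ge_le_lintegral_div (μ := (volume : Measure ℂ))
    (f := fun x => ENNReal.ofReal (2 * q / p ^ 2) * G x) (ε := ENNReal.ofReal (mu ^ 2))
    (hGm.const_mul _).aemeasurable (ENNReal.ofReal_pos.2 (by positivity)).ne'
    ENNReal.ofReal_ne_top
  refine (measure_mono hsub).trans (hch.trans ?_)
  rw [lintegral_const_mul _ hGm]
  calc ENNReal.ofReal (2 * q / p ^ 2) * (∫⁻ x, G x) / ENNReal.ofReal (mu ^ 2)
      ≤ ENNReal.ofReal (2 * q / p ^ 2) *
        ENNReal.ofReal ((1 / (1 - q)) ^ 2 * (∫ x, f x ^ 2) * (2 * q)) /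
          ENNReal.ofReal (mu ^ 2) :=
        ENNReal.div_le_div_right (mul_le_mul_right hGI _) _
    _ = ENNReal.ofReal ((2 * q / p / (1 - q)) ^ 2 * (∫ x, f x ^ 2) / mu ^ 2) := by
        rw [← ENNReal.ofReal_mul (by positivity), ← ENNReal.ofReal_div_of_pos (by positivity)]
        congr 1
        field_simp

end Vale.Agent.P112
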