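import Vale.Agent.P112.Shell
import Vale.Agent.P112.Jac

namespace Vale.Agent.P112

open MeasureTheory Set Filter Topology
open scoped NNReal ENNReal

/-- the weight `(1 - |t|) ^ (-1/2)` -/
noncomputable def sg (t : ℝ) : ℝ := (Real.sqrt (1 - |t|))⁻¹

lemma sg_nonneg (t : ℝ) : 0 ≤ sg t := inv_nonneg.2 (Real.sqrt_nonneg _)

lemma sg_meas : Measurable sg := by
  unfold sg
  have h : Continuous fun t : ℝ => Real.sqrt (1 - |t|) := by fun_prop
  exact h.measurable.inv

lemma sg_finite : ∃ ω : ℝ, 0 < ω ∧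
    ∫⁻ t in Ioo (-1 : ℝ) 1, ENNReal.ofReal (sg t) ≤ ENNReal.ofReal ω := by
  have h1 : IntervalIntegrable (fun x : ℝ => x ^ (-(1 / 2) : ℝ)) volume 0 2 :=
    intervalIntegral.intervalIntegrable_rpow' (by norm_num)
  have h2 : IntervalIntegrable (fun x : ℝ => (1 - x) ^ (-(1 / 2) : ℝ)) volume (-1) 1 := by
    have := (h1.comp_sub_left 1).symm
    norm_num at this ⊢
    exact this
  have h3 : IntervalIntegrable (fun x : ℝ => (1 + x) ^ (-(1 / 2) : ℝ)) volume (-1) 1 := by
    have := h1.comp_add_left 1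
    norm_num at this ⊢
    exact this
  have h4 : IntegrableOn (fun x : ℝ => (1 - x) ^ (-(1 / 2) : ℝ) + (1 + x) ^ (-(1 / 2) : ℝ))
      (Ioo (-1) 1) := by
    rw [← intervalIntegrable_iff_integrableOn_Ioo_of_le (by norm_num)]
    exact h2.add h3
  have hrw : ∀ y : ℝ, 0 < y → (Real.sqrt y)⁻¹ = y ^ (-(1 / 2) : ℝ) := by
    intro y hy
    rw [Real.rpow_neg hy.le, Real.sqrt_eq_rpow]
  have h5 : IntegrableOn sg (Ioo (-1) 1) := by
    refine Integrable.mono' h4 sg_meas.aestronglyMeasurable ?_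
    rw [ae_restrict_iff' measurableSet_Ioo]
    apply Eventually.of_forall
    intro t ht
    have ha : 0 < 1 - t := by linarith [ht.2]
    have hb : 0 < 1 + t := by linarith [ht.1]
    have ha2 := Real.rpow_nonneg ha.le (-(1 / 2))
    have hb2 := Real.rpow_nonneg hb.le (-(1 / 2))
    rw [Real.norm_eq_abs, abs_of_nonneg (sg_nonneg t)]
    unfold sg
    rcases le_or_gt 0 t with h | h
    · rw [abs_of_nonneg h, hrw _ ha]
      linarith
    · rw [abs_of_neg h, sub_neg_eq_add, hrw _ hb]
      linarith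
  have h6 : ∫⁻ t in Ioo (-1 : ℝ) 1, ENNReal.ofReal (sg t) < ∞ := h5.lintegral_lt_top
  refine ⟨(∫⁻ t in Ioo (-1 : ℝ) 1, ENNReal.ofReal (sg t)).toReal + 1, by positivity, ?_⟩
  calc ∫⁻ t in Ioo (-1 : ℝ) 1, ENNReal.ofReal (sg t)
      = ENNReal.ofReal ((∫⁻ t in Ioo (-1 : ℝ) 1, ENNReal.ofReal (sg t)).toReal) :=
        (ENNReal.ofReal_toReal h6.ne).symm
    _ ≤ _ := ENNReal.ofReal_le_ofReal (by linarith)

lemma amgm {ω mu p t : ℝ} (hω : 0 < ω) (hmu : 0 < mu) (hp : 0 < p) (ht : p ≤ |t|)
    (h0 : 0 < 1 - |t|) (y : ℝ) :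
    ‖y / t‖ₑ ≤ ENNReal.ofReal (mu / (2 * ω)) * ENNReal.ofReal (sg t) +
      ENNReal.ofReal (ω / (2 * mu)) *
        (ENNReal.ofReal (Real.sqrt (1 - |t|) / p ^ 2) * ENNReal.ofReal (y ^ 2)) := by
  have hs0 : 0 < Real.sqrt (1 - |t|) := Real.sqrt_pos.2 h0
  rw [← ENNReal.ofReal_mul (by positivity), ← ENNReal.ofReal_mul (by positivity),
    ← ENNReal.ofReal_mul (by positivity), ← ENNReal.ofReal_add
      (mul_nonneg (by positivity) (sg_nonneg t)) (by positivity),
    ← ofReal_norm]
  apply ENNReal.ofReal_le_ofReal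
  rw [norm_div, Real.norm_eq_abs, Real.norm_eq_abs]
  have h1 : |y| / |t| ≤ |y| / p :=
    div_le_div_of_nonneg_left (abs_nonneg _) hp ht
  refine h1.trans ?_
  unfold sg
  generalize Real.sqrt (1 - |t|) = s at hs0 ⊢
  rw [← sq_abs y]
  generalize |y| = z
  have h2 : mu / (2 * ω) * s⁻¹ + ω / (2 * mu) * (s / p ^ 2 * z ^ 2) - z / p =
      (mu * p - ω * s * z) ^ 2 / (2 * ω * s * mu * p ^ 2) := by
    field_simp
    ring
  have h3 : 0 ≤ (mu * p - ω * s * z) ^ 2 / (2 * ω * s * mu * p ^ 2) := by positivity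
  linarith

/-- the weak bound for the shell part, up to the critical scale -/
lemma shell_weak_one {ω : ℝ} (hω : 0 < ω)
    (hω2 : ∫⁻ t in Ioo (-1 : ℝ) 1, ENNReal.ofReal (sg t) ≤ ENNReal.ofReal ω)
    {v : ℂ → ℂ} (hv1 : ∀ x, ‖v x‖ = 1) (hL : LipschitzWith 1 v) (f : SchwartzMap ℂ ℝ) {p q : ℝ}
    (hp : 0 < p) (hq1 : q ≤ 1) {mu : ℝ} (hmu : 0 < mu) :
    volume {x : ℂ | mu < |shellH v p q f x|} ≤
      ENNReal.ofReal ((ω / p) ^ 2 * (∫ x, f x ^ 2) / mu ^ 2) := by
  have hv : Continuous v := hL.continuous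
  have hfsq : Integrable fun x : ℂ => f x ^ 2 := (f.memLp 2 volume).integrable_sq
  have hI0 : 0 ≤ ∫ x, f x ^ 2 := integral_nonneg fun x => sq_nonneg _
  set S := shell p q with hS
  have hSm : MeasurableSet S := meas_shell p q
  have hSsub : S ⊆ Ioo (-1 : ℝ) 1 := by
    intro t ht
    exact abs_lt.1 (ht.2.trans_le hq1)
  have hWS : ∫⁻ t in S, ENNReal.ofReal (sg t) ≤ ENNReal.ofReal ω :=
    (lintegral_mono_set hSsub).trans hω2
  set F : ℂ → ℝ≥0∞ := fun y => ENNReal.ofReal (f y ^ 2) with hF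
  have hFm : Measurable F := (f.continuous.pow 2).measurable.ennreal_ofReal
  have hFI : ∫⁻ x, F x = ENNReal.ofReal (∫ x, f x ^ 2) :=
    (ofReal_integral_eq_lintegral_ofReal hfsq (Eventually.of_forall fun x => sq_nonneg _)).symm
  -- the weighted square function
  set wt : ℝ → ℝ≥0∞ := fun t => ENNReal.ofReal (Real.sqrt (1 - |t|) / p ^ 2) with hwt
  have hwtm : Measurable wt := by
    have h : Continuous fun t : ℝ => Real.sqrt (1 - |t|) / p ^ 2 := by fun_prop
    exact h.measurable.ennreal_ofReal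
  have hmeas : Measurable (Function.uncurry fun (x : ℂ) (t : ℝ) => wt t * F (x - t • v x)) := by
    have hm1 : Measurable fun z : ℂ × ℝ => wt z.2 := hwtm.comp measurable_snd
    have hm2 : Measurable fun z : ℂ × ℝ => F (z.1 - z.2 • v z.1) := by
      apply hFm.comp
      have : Continuous fun z : ℂ × ℝ => z.1 - z.2 • v z.1 := by fun_prop
      exact this.measurable
    exact hm1.mul hm2
  set V : ℂ → ℝ≥0∞ := fun x => ∫⁻ t in S, wt t * F (x - t • v x) with hV
  have hVm : Measurable V := hmeas.lintegral_prod_right'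
  have hVI : ∫⁻ x, V x ≤ ENNReal.ofReal (ω * ((∫ x, f x ^ 2) / p ^ 2)) := by
    calc ∫⁻ x, V x = ∫⁻ t in S, ∫⁻ x, wt t * F (x - t • v x) :=
          lintegral_lintegral_swap hmeas.aemeasurable
      _ ≤ ∫⁻ t in S, ENNReal.ofReal (sg t) * ENNReal.ofReal ((∫ x, f x ^ 2) / p ^ 2) := by
          apply setLIntegral_mono' hSm
          intro t ht
          have ht1 : |t| < 1 := ht.2.trans_le hq1
          have h0 : 0 < 1 - |t| := by linarith
          have hs0 : 0 < Real.sqrt (1 - |t|) := Real.sqrt_pos.2 h0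
          have hinj : Function.Injective (fun x => x - t • v x) :=
            (anti_line hL ht1 le_rfl).injective
          have hcm : Measurable fun x : ℂ => F (x - t • v x) := by
            apply hFm.comp
            have : Continuous fun x : ℂ => x - t • v x := by fun_prop
            exact this.measurable
          rw [lintegral_const_mul _ hcm]
          have h1 := lintegral_comp_le_one hv1 hL ht1 hinj hFm
          rw [hFI] at h1
          have h2 : wt t = ENNReal.ofReal (sg t / p ^ 2) * ENNReal.ofReal (1 - |t|) := by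
            rw [← ENNReal.ofReal_mul (div_nonneg (sg_nonneg t) (by positivity))]
            change ENNReal.ofReal (Real.sqrt (1 - |t|) / p ^ 2) = _
            congr 1
            have h3 : Real.sqrt (1 - |t|) * Real.sqrt (1 - |t|) = 1 - |t| :=
              Real.mul_self_sqrt h0.le
            unfold sg
            calc Real.sqrt (1 - |t|) / p ^ 2 = (Real.sqrt (1 - |t|))⁻¹ / p ^ 2 *
                (Real.sqrt (1 - |t|) * Real.sqrt (1 - |t|)) := by
                  field_simp
              _ = _ := by rw [h3]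
          rw [h2, mul_assoc]
          calc ENNReal.ofReal (sg t / p ^ 2) *
              (ENNReal.ofReal (1 - |t|) * ∫⁻ x, F (x - t • v x)) ≤
              ENNReal.ofReal (sg t / p ^ 2) * ENNReal.ofReal (∫ x, f x ^ 2) :=
                mul_le_mul_right h1 _
            _ = ENNReal.ofReal (sg t) * ENNReal.ofReal ((∫ x, f x ^ 2) / p ^ 2) := by
                rw [← ENNReal.ofReal_mul (div_nonneg (sg_nonneg t) (by positivity)),
                  ← ENNReal.ofReal_mul (sg_nonneg t)]
                congr 1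
                ring
      _ = (∫⁻ t in S, ENNReal.ofReal (sg t)) * ENNReal.ofReal ((∫ x, f x ^ 2) / p ^ 2) :=
          lintegral_mul_const _ sg_meas.ennreal_ofReal
      _ ≤ ENNReal.ofReal ω * ENNReal.ofReal ((∫ x, f x ^ 2) / p ^ 2) :=
          mul_le_mul_left hWS _
      _ = _ := by rw [← ENNReal.ofReal_mul hω.le]
  -- pointwise
  have hpt : ∀ x, ENNReal.ofReal |shellH v p q f x| ≤
      ENNReal.ofReal (mu / 2) + ENNReal.ofReal (ω / (2 * mu)) * V x := by
    intro x
    have hxm : Measurable fun t : ℝ => wt t * F (x - t • v x) := by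
      have hc : Continuous fun t : ℝ => x - t • v x := by fun_prop
      exact hwtm.mul (hFm.comp hc.measurable)
    calc ENNReal.ofReal |shellH v p q f x| = ‖∫ t in S, f (x - t • v x) / t‖ₑ := by
          rw [← Real.norm_eq_abs, ofReal_norm]
          rfl
      _ ≤ ∫⁻ t in S, ‖f (x - t • v x) / t‖ₑ := enorm_integral_le_lintegral_enorm _
      _ ≤ ∫⁻ t in S, (ENNReal.ofReal (mu / (2 * ω)) * ENNReal.ofReal (sg t) +
            ENNReal.ofReal (ω / (2 * mu)) * (wt t * F (x - t • v x))) := by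
          apply setLIntegral_mono' hSm
          intro t ht
          have ht1 : |t| < 1 := ht.2.trans_le hq1
          have h0 : 0 < 1 - |t| := by linarith
          have hs0 : 0 < Real.sqrt (1 - |t|) := Real.sqrt_pos.2 h0
          set y := f (x - t • v x) with hy
          exact amgm hω hmu hp ht.1 h0 y
      _ = ENNReal.ofReal (mu / (2 * ω)) * (∫⁻ t in S, ENNReal.ofReal (sg t)) +
            ENNReal.ofReal (ω / (2 * mu)) * V x := by
          rw [lintegral_add_left (sg_meas.ennreal_ofReal.const_mul _),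
            lintegral_const_mul _ sg_meas.ennreal_ofReal, lintegral_const_mul _ hxm]
      _ ≤ ENNReal.ofReal (mu / (2 * ω)) * ENNReal.ofReal ω +
            ENNReal.ofReal (ω / (2 * mu)) * V x := by
          exact add_le_add (mul_le_mul_right hWS _) le_rfl
      _ = _ := by
          rw [← ENNReal.ofReal_mul (by positivity)]
          congr 2
          field_simp
  have hsub : {x : ℂ | mu < |shellH v p q f x|} ⊆
      {x : ℂ | ENNReal.ofReal (mu / 2) ≤ ENNReal.ofReal (ω / (2 * mu)) * V x} := by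
    intro x hx
    have h1 : ENNReal.ofReal mu ≤ ENNReal.ofReal |shellH v p q f x| :=
      ENNReal.ofReal_le_ofReal (le_of_lt hx)
    have h2 := h1.trans (hpt x)
    have h3 : ENNReal.ofReal mu = ENNReal.ofReal (mu / 2) + ENNReal.ofReal (mu / 2) := by
      rw [← ENNReal.ofReal_add (by positivity) (by positivity), add_halves]
    rw [h3] at h2
    exact (ENNReal.add_le_add_iff_left ENNReal.ofReal_ne_top).1 h2
  have hch := meas_ge_le_lintegral_div (μ := (volume : Measure ℂ))
    (f := fun x => ENNReal.ofReal (ω / (2 * mu)) * V x) (ε := ENNReal.ofReal (mu / 2))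
    (hVm.const_mul _).aemeasurable (ENNReal.ofReal_pos.2 (by positivity)).ne'
    ENNReal.ofReal_ne_top
  refine (measure_mono hsub).trans (hch.trans ?_)
  rw [lintegral_const_mul _ hVm]
  calc ENNReal.ofReal (ω / (2 * mu)) * (∫⁻ x, V x) / ENNReal.ofReal (mu / 2)
      ≤ ENNReal.ofReal (ω / (2 * mu)) *
        ENNReal.ofReal (ω * ((∫ x, f x ^ 2) / p ^ 2)) / ENNReal.ofReal (mu / 2) :=
        ENNReal.div_le_div_right (mul_le_mul_right hVI _) _
    _ = ENNReal.ofReal ((ω / p) ^ 2 * (∫ x, f x ^ 2) / mu ^ 2) := by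
        rw [← ENNReal.ofReal_mul (by positivity), ← ENNReal.ofReal_div_of_pos (by positivity)]
        congr 1
        field_simp

end Vale.Agent.P112
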