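import Vale.Agent.P112.Defs

namespace Vale.Agent.P112

open MeasureTheory Set Filter Topology

/-- the shell `{p ≤ |t| < q}` -/
def shell (p q : ℝ) : Set ℝ := {t : ℝ | p ≤ |t| ∧ |t| < q}

/-- the part of the Hilbert transform from the shell -/
noncomputable def shellH (v : ℂ → ℂ) (p q : ℝ) (f : ℂ → ℝ) (x : ℂ) : ℝ :=
  ∫ t in shell p q, f (x - t • v x) / t

lemma meas_shell (p q : ℝ) : MeasurableSet (shell p q) :=
  (isClosed_le continuous_const continuous_abs).measurableSet.inter
    (isOpen_lt continuous_abs continuous_const).measurableSet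

lemma meas_ann (p q : ℝ) : MeasurableSet {t : ℝ | p < |t| ∧ |t| < q} :=
  (isOpen_lt continuous_const continuous_abs).measurableSet.inter
    (isOpen_lt continuous_abs continuous_const).measurableSet

lemma integrable_div {g : ℝ → ℝ} (hg : Continuous g) {p q : ℝ} (hp : 0 < p) {S : Set ℝ}
    (hS : MeasurableSet S) (hsub : S ⊆ {t : ℝ | p ≤ |t| ∧ |t| ≤ q}) :
    IntegrableOn (fun t => g t / t) S := by
  have hsub2 : S ⊆ Icc (-q) q := by
    intro t ht
    exact abs_le.1 (hsub ht).2
  obtain ⟨M, hM⟩ := (isCompact_Icc (a := -q) (b := q)).exists_bound_of_continuousOn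
    hg.continuousOn
  apply Measure.integrableOn_of_bounded (M := M / p)
  · exact (measure_mono hsub2).trans_lt measure_Icc_lt_top |>.ne
  · exact (hg.measurable.div measurable_id).aestronglyMeasurable
  · rw [ae_restrict_iff' hS]
    apply Eventually.of_forall
    intro t ht
    have h1 := hM t (hsub2 ht)
    have h2 := (hsub ht).1
    rw [norm_div, Real.norm_eq_abs t]
    exact div_le_div₀ ((norm_nonneg _).trans h1) h1 hp h2

lemma truncH_split {v : ℂ → ℂ} {f : ℂ → ℝ} (hf : Continuous f) (x : ℂ) {ε p q : ℝ}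
    (hε : 0 < ε) (hp : ε < p) (hq : p < q) :
    truncH v q ε f x = truncH v p ε f x + shellH v p q f x := by
  have hg : Continuous fun t : ℝ => f (x - t • v x) := by
    apply hf.comp
    fun_prop
  unfold truncH shellH
  have h1 : {t : ℝ | ε < |t| ∧ |t| < q} = {t : ℝ | ε < |t| ∧ |t| < p} ∪ shell p q := by
    ext t
    simp only [shell, mem_union, mem_ofPred_eq]
    constructor
    · rintro ⟨h1, h2⟩
      by_cases h : |t| < p
      · exact Or.inl ⟨h1, h⟩
      · exact Or.inr ⟨not_lt.1 h, h2⟩
    · rintro (⟨h1, h2⟩ | ⟨h1, h2⟩)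
      · exact ⟨h1, h2.trans hq⟩
      · exact ⟨hp.trans_le h1, h2⟩
  rw [h1]
  apply setIntegral_union
  · rw [disjoint_left]
    intro t h2 h3
    exact absurd h2.2 (not_lt.2 h3.1)
  · exact meas_shell p q
  · apply integrable_div hg hε (q := p) (meas_ann ε p)
    intro t ht
    exact ⟨ht.1.le, ht.2.le⟩
  · apply integrable_div hg (hε.trans hp) (q := q) (meas_shell p q)
    intro t ht
    exact ⟨ht.1, ht.2.le⟩

/-- the limit defining the principal value exists -/
lemma exists_limit {g : ℝ → ℝ} (hg : ContDiff ℝ 1 g) (a : ℝ) :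
    ∃ L, Tendsto (fun ε : ℝ => ∫ t in {t : ℝ | ε < |t| ∧ |t| < a}, g t / t) (𝓝[>] (0 : ℝ))
      (𝓝 L) := by
  rcases le_or_gt a 0 with ha | ha
  · refine ⟨0, ?_⟩
    apply tendsto_const_nhds.congr
    intro ε
    have h1 : {t : ℝ | ε < |t| ∧ |t| < a} = ∅ := by
      ext t
      simp only [mem_ofPred_eq, mem_empty_iff_false, iff_false]
      rintro ⟨-, h2⟩
      linarith [abs_nonneg t]
    rw [h1]
    simp
  · set h : ℝ → ℝ := fun t => (g t - g (-t)) / t with hh
    have hcg : Continuous g := hg.continuous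
    have hd : Differentiable ℝ g := hg.differentiable (by norm_num)
    -- bound of the derivative on a compact interval
    have hint : ∀ c d : ℝ, IntervalIntegrable h volume c d := by
      intro c d
      set q : ℝ := max |c| |d| with hq
      have hq0 : 0 ≤ q := (abs_nonneg c).trans (le_max_left _ _)
      obtain ⟨M, hM⟩ := (isCompact_Icc (a := -q) (b := q)).exists_bound_of_continuousOn
        (hg.continuous_deriv (by norm_num)).continuousOn
      have hsub : uIoc c d ⊆ Icc (-q) q := by
        intro t ht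
        have h1 : t ∈ uIcc c d := uIoc_subset_uIcc ht
        rw [mem_uIcc] at h1
        have hc := abs_le.1 (le_max_left |c| |d|)
        have hd' := abs_le.1 (le_max_right |c| |d|)
        rcases h1 with h1 | h1
        · exact ⟨by linarith [hc.1, h1.1], by linarith [hd'.2, h1.2]⟩
        · exact ⟨by linarith [hd'.1, h1.1], by linarith [hc.2, h1.2]⟩
      rw [intervalIntegrable_iff]
      apply Measure.integrableOn_of_bounded (M := 2 * M)
      · exact (measure_mono hsub).trans_lt measure_Icc_lt_top |>.ne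
      · exact ((hcg.measurable.sub (hcg.measurable.comp measurable_neg)).div
          measurable_id).aestronglyMeasurable
      · rw [ae_restrict_iff' measurableSet_uIoc]
        apply Eventually.of_forall
        intro t ht
        have h2 := hsub ht
        have h3 : -t ∈ Icc (-q) q := ⟨by linarith [h2.2], by linarith [h2.1]⟩
        have h4 := (convex_Icc (-q) q).norm_image_sub_le_of_norm_deriv_le
          (f := g) (fun y _ => hd y) hM h3 h2
        have h5 : ‖t - -t‖ = 2 * |t| := by
          rw [Real.norm_eq_abs, sub_neg_eq_add, ← two_mul, abs_mul]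
          norm_num
        rw [h5] at h4
        have hM0 : 0 ≤ M := (norm_nonneg _).trans (hM t h2)
        rw [hh]
        simp only [norm_div]
        apply div_le_of_le_mul₀ (norm_nonneg _) (by positivity)
        rw [Real.norm_eq_abs t]
        linarith
    have hcont : Continuous fun ε => ∫ t in a..ε, h t :=
      intervalIntegral.continuous_primitive hint a
    refine ⟨-∫ t in a..0, h t, ?_⟩
    have h6 : Tendsto (fun ε => -∫ t in a..ε, h t) (𝓝[>] (0 : ℝ)) (𝓝 (-∫ t in a..0, h t)) :=
      (hcont.neg.tendsto 0).mono_left nhdsWithin_le_nhds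
    apply h6.congr'
    have h7 : ∀ᶠ ε : ℝ in 𝓝[>] (0 : ℝ), ε < a :=
      nhdsWithin_le_nhds (Iio_mem_nhds ha)
    filter_upwards [h7, self_mem_nhdsWithin] with ε hε1 hε0
    have hε0' : 0 < ε := hε0
    have h8 : {t : ℝ | ε < |t| ∧ |t| < a} = Ioo ε a ∪ Ioo (-a) (-ε) := by
      ext t
      simp only [mem_union, mem_ofPred_eq, mem_Ioo]
      constructor
      · rintro ⟨h1, h2⟩
        rcases le_or_gt 0 t with h | h
        · rw [abs_of_nonneg h] at h1 h2
          exact Or.inl ⟨h1, h2⟩
        · rw [abs_of_neg h] at h1 h2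
          exact Or.inr ⟨by linarith, by linarith⟩
      · rintro (⟨h1, h2⟩ | ⟨h1, h2⟩)
        · rw [abs_of_pos (hε0'.trans h1)]
          exact ⟨h1, h2⟩
        · rw [abs_of_neg (by linarith)]
          exact ⟨by linarith, by linarith⟩
    have hint2 : ∀ c d : ℝ, (∀ t ∈ Ioo c d, ε ≤ |t| ∧ |t| ≤ a) →
        IntegrableOn (fun t => g t / t) (Ioo c d) := fun c d hcd =>
      integrable_div hcg hε0' measurableSet_Ioo hcd
    have hA : ∀ t ∈ Ioo ε a, ε ≤ |t| ∧ |t| ≤ a := by
      intro t ht
      rw [abs_of_pos (hε0'.trans ht.1)]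
      exact ⟨ht.1.le, ht.2.le⟩
    have hB : ∀ t ∈ Ioo (-a) (-ε), ε ≤ |t| ∧ |t| ≤ a := by
      intro t ht
      rw [abs_of_neg (by linarith [ht.2])]
      exact ⟨by linarith [ht.2], by linarith [ht.1]⟩
    rw [h8, setIntegral_union _ measurableSet_Ioo (hint2 _ _ hA) (hint2 _ _ hB),
      ← integral_Ioc_eq_integral_Ioo, ← integral_Ioc_eq_integral_Ioo,
      ← intervalIntegral.integral_of_le hε1.le, ← intervalIntegral.integral_of_le (by linarith)]
    · have h9 : ∫ t in (-a)..(-ε), g t / t = -∫ t in ε..a, g (-t) / t := by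
        rw [← intervalIntegral.integral_comp_neg, ← intervalIntegral.integral_neg]
        apply intervalIntegral.integral_congr
        intro t _
        simp only [div_neg]
      rw [h9, intervalIntegral.integral_symm, neg_neg, ← sub_eq_add_neg,
        ← intervalIntegral.integral_sub]
      · apply intervalIntegral.integral_congr
        intro t _
        simp only [hh, sub_div]
      · rw [intervalIntegrable_iff_integrableOn_Ioo_of_le hε1.le]
        exact hint2 _ _ hA
      · rw [intervalIntegrable_iff_integrableOn_Ioo_of_le hε1.le]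
        exact integrable_div (g := fun t => g (-t)) (hcg.comp continuous_neg) hε0'
          measurableSet_Ioo hA
    · rw [disjoint_left]
      intro t h2 h3
      linarith [h2.1, h3.2]

lemma hilbert_split {v : ℂ → ℂ} (f : SchwartzMap ℂ ℝ) (x : ℂ) {p q : ℝ} (hp : 0 < p)
    (hq : p < q) : hilbertAlong v q f x = hilbertAlong v p f x + shellH v p q f x := by
  have hg : ContDiff ℝ 1 fun t : ℝ => f (x - t • v x) := by
    apply (f.smooth 1).comp
    fun_prop
  obtain ⟨L, hL⟩ := exists_limit hg p
  have h1 : Tendsto (fun ε => truncH v p ε f x) (𝓝[>] (0 : ℝ)) (𝓝 L) := hL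
  have h2 : Tendsto (fun ε => truncH v q ε f x) (𝓝[>] (0 : ℝ)) (𝓝 (L + shellH v p q f x)) := by
    apply (h1.add_const (shellH v p q f x)).congr'
    have h7 : ∀ᶠ ε : ℝ in 𝓝[>] (0 : ℝ), ε < p :=
      nhdsWithin_le_nhds (Iio_mem_nhds hp)
    filter_upwards [h7, self_mem_nhdsWithin] with ε hε1 hε0
    exact (truncH_split f.continuous x hε0 hε1 hq).symm
  unfold hilbertAlong
  rw [h1.limUnder_eq, h2.limUnder_eq]

end Vale.Agent.P112
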